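import Vale.Agent.P097.H402.Alg.Defs
import Vale.Agent.P097.H992.NZF

/-! # P097 / ALG-EL: the law at `ξ = 0` of an isotropic end (`EndLI` from `LawI0`).
Owner: helper147. -/

set_option linter.all false

open Complex Metric Filter Topology Set

namespace Vale.Agent.P097.H147

open Vale.Agent.P097.NZ Vale.Agent.P097.NZ.H992 Vale.Agent.P097.H402.Rat Vale.Agent.P097.Alg

/-! ## 1. the function `vI` -/

theorem exp_vI {m : ℝ} {s : ℂ} (h1 : Ex ((3 + m) * s) ≠ 0) (h2 : Ex ((3 - m) * s) ≠ 0) :
    Complex.exp (vI m s) = Ex ((3 + m) * s) / Ex ((3 - m) * s) := by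
  rw [vI, Complex.exp_log (div_ne_zero h1 h2)]

theorem vI_zero (m : ℝ) : vI m 0 = 0 := by simp [vI, Ex_zero]

theorem Ex_ev (c : ℂ) : ∀ᶠ t in 𝓝 (0 : ℂ), Ex (c * t) ≠ 0 := by
  have h1 : Continuous (fun t => Ex (c * t)) := Ex_diff.continuous.comp (by fun_prop)
  refine h1.continuousAt.eventually_ne ?_
  simp [Ex_zero]

theorem hasDerivAt_vI0 (m : ℝ) : HasDerivAt (vI m) m 0 := by
  have h : ∀ k : ℂ, HasDerivAt (fun τ : ℂ => Ex (k * τ)) (1 / 2 * k) 0 := by
    intro k
    have h1 : HasDerivAt (fun τ : ℂ => k * τ) k 0 := by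
      simpa using (hasDerivAt_id (0 : ℂ)).const_mul k
    have h2 : HasDerivAt Ex (1 / 2) (k * 0) := by rw [mul_zero]; exact hasDerivAt_Ex0
    exact h2.comp 0 h1
  have h3 := (h (3 + (m : ℂ))).div (h (3 - (m : ℂ))) (by simp [Ex_zero])
  have h4 := h3.clog (by simp [Ex_zero])
  have h5 : vI m = fun s => Complex.log (((fun τ : ℂ => Ex ((3 + (m : ℂ)) * τ)) /
    fun τ : ℂ => Ex ((3 - (m : ℂ)) * τ)) s) := rfl
  rw [h5]
  refine h4.congr_deriv ?_
  simp [Ex_zero]
  ring

theorem vI_neg (m : ℝ) : ∀ᶠ s in 𝓝 (0 : ℂ), vI m (-s) = vI m s - 2 * m * s := by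
  have h1 : ContinuousAt (fun s => vI m s) 0 := (hasDerivAt_vI0 m).continuousAt
  have h2 : ∀ᶠ s in 𝓝 (0 : ℂ), |(vI m s - 2 * m * s).im| < Real.pi := by
    have h3' : ContinuousAt (fun s => vI m s - 2 * m * s) 0 := h1.sub (by fun_prop)
    have h3 : ContinuousAt (fun s => |(vI m s - 2 * m * s).im|) 0 :=
      (Complex.continuous_im.continuousAt.comp h3').abs
    refine h3.eventually (gt_mem_nhds ?_)
    simp [vI_zero, Real.pi_pos]
  filter_upwards [h2, Ex_ev (3 + m), Ex_ev (3 - m)] with s e1 e2 e3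
  have e4 : Ex ((3 + (m : ℂ)) * -s) / Ex ((3 - (m : ℂ)) * -s) =
      Complex.exp (vI m s - 2 * m * s) := by
    rw [mul_neg, mul_neg, Ex_neg, Ex_neg, Complex.exp_sub, exp_vI e2 e3]
    have e5 : Complex.exp (-((3 - (m : ℂ)) * s)) = Complex.exp (-((3 + (m : ℂ)) * s)) *
        Complex.exp (2 * m * s) := by
      rw [← Complex.exp_add]; congr 1; ring
    rw [e5]
    have e6 : Complex.exp (-((3 + (m : ℂ)) * s)) ≠ 0 := Complex.exp_ne_zero _
    have e7 : Complex.exp (2 * m * s) ≠ 0 := Complex.exp_ne_zero _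
    field_simp
  have e8 : vI m (-s) = Complex.log (Ex ((3 + (m : ℂ)) * -s) / Ex ((3 - (m : ℂ)) * -s)) := rfl
  rw [e8, e4]
  exact Complex.log_exp (abs_lt.1 e1).1 (abs_lt.1 e1).2.le

/-! ## 2. the chord equation -/

theorem Kint_iso {s c a δ x : ℂ} (hs : s = 1 ∨ s = -1) (hδ : δ ≠ 0)
    (he : Complex.exp (-(I * (s * δ))) * Ex (I * (a + 1) * (s * δ) * x) =
      Complex.exp (I * (s * δ)) * Ex (I * (a - 1) * (s * δ) * x)) :
    Kint (fun v => Complex.exp (s * I * a * (δ * v)) * c * snc (δ * (v - 1))) x = 0 := by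
  set D : ℂ := s * δ with hD
  have hs2 : s * s = 1 := by rcases hs with rfl | rfl <;> ring
  have hsD : δ = s * D := by rw [hD, ← mul_assoc, hs2, one_mul]
  set G : ℂ → ℂ := fun v => (c * s / δ) * (1 / (2 * I)) *
    (Complex.exp (-(I * D)) * (v * Ex ((I * (a + 1) * D) * v)) -
      Complex.exp (I * D) * (v * Ex ((I * (a - 1) * D) * v))) with hG
  have hGd : ∀ v : ℂ, HasDerivAt G (Complex.exp (s * I * a * (δ * v)) * c * snc (δ * (v - 1)) *
      (v - 1)) v := by
    intro v
    have h1 := (((hasDerivAt_prim (I * (a + 1) * D) v).const_mul (Complex.exp (-(I * D)))).sub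
      ((hasDerivAt_prim (I * (a - 1) * D) v).const_mul (Complex.exp (I * D)))).const_mul
        ((c * s / δ) * (1 / (2 * I)))
    refine h1.congr_deriv ?_
    have h2 := mul_snc (δ * (v - 1))
    have h3 : Complex.sin (δ * (v - 1)) = s * Complex.sin (D * (v - 1)) := by
      rcases hs with rfl | rfl
      · rw [hD]; simp
      · rw [hD]
        rw [show -1 * δ * (v - 1) = -(δ * (v - 1)) by ring, Complex.sin_neg]
        ring
    have h4 : Complex.exp (-(I * D)) * Complex.exp (I * (a + 1) * D * v) =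
        Complex.exp (s * I * a * (δ * v)) * Complex.exp (D * (v - 1) * I) := by
      rw [← Complex.exp_add, ← Complex.exp_add]
      congr 1
      rw [hsD]
      linear_combination (-(I * a * D * v)) * hs2
    have h5 : Complex.exp (I * D) * Complex.exp (I * (a - 1) * D * v) =
        Complex.exp (s * I * a * (δ * v)) * Complex.exp (-(D * (v - 1)) * I) := by
      rw [← Complex.exp_add, ← Complex.exp_add]
      congr 1
      rw [hsD]
      linear_combination (-(I * a * D * v)) * hs2
    rw [h4, h5]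
    have h6 : snc (δ * (v - 1)) * (v - 1) = s * Complex.sin (D * (v - 1)) / δ := by
      rw [← h3, ← h2]
      field_simp
    rw [mul_assoc (Complex.exp (s * I * a * (δ * v)) * c), h6, Complex.sin]
    have hI : I * I = -1 := I_mul_I
    generalize Complex.exp (D * (v - 1) * I) = P
    generalize Complex.exp (-(D * (v - 1)) * I) = Q
    generalize Complex.exp (s * I * a * (δ * v)) = W
    have hI0 : I ≠ 0 := I_ne_zero
    field_simp
    linear_combination c * s * W * (P - Q) * hI
  have hF : ∀ t ∈ Set.uIcc (0 : ℝ) 1, HasDerivAt (fun t : ℝ => G (t * x))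
      (x * (Complex.exp (s * I * a * (δ * ((t : ℂ) * x))) * c * snc (δ * ((t : ℂ) * x - 1)) *
        ((t : ℂ) * x - 1))) t := by
    intro t ht
    have h1 : HasDerivAt (fun t : ℝ => (t : ℂ) * x) x t := by
      have h2 : HasDerivAt (fun s : ℝ => (s : ℂ)) 1 t := Complex.ofRealCLM.hasDerivAt
      simpa using h2.mul_const x
    have h3 := (hGd (t * x)).comp_of_eq t h1 rfl
    refine h3.congr_deriv ?_
    ring
  have hcont : Continuous (fun t : ℝ =>
      x * (Complex.exp (s * I * a * (δ * ((t : ℂ) * x))) * c * snc (δ * ((t : ℂ) * x - 1)) *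
        ((t : ℂ) * x - 1))) := by
    have h1 : Continuous snc := snc_diff.continuous
    have h2 : Continuous (fun t : ℝ => snc (δ * ((t : ℂ) * x - 1))) := h1.comp (by fun_prop)
    fun_prop
  unfold Kint
  rw [intervalIntegral.integral_eq_sub_of_hasDerivAt hF (hcont.intervalIntegrable 0 1)]
  have h0 : G ((0 : ℝ) * x) = 0 := by simp [hG]
  have h1 : G ((1 : ℝ) * x) = 0 := by
    simp only [hG, ofReal_one, one_mul]
    have : Complex.exp (-(I * D)) * (x * Ex (I * (a + 1) * D * x)) -
        Complex.exp (I * D) * (x * Ex (I * (a - 1) * D * x)) = 0 := by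
      linear_combination x * he
    rw [this, mul_zero]
  rw [h0, h1, sub_zero]

/-! ## 3. the root -/

theorem ki_root (A : RootA) {s : ℂ} {N : ℕ} {k : ℤ} {R : ℂ → ℂ} {ε : ℝ} (E : EndI s N k R ε) :
    ∀ᶠ p in 𝓝 ((0, 0) : ℂ × ℂ), ∀ x ∈ ball (2 : ℂ) (1 / 4), Kint (ki s N k R p) x = 0 →
      x = ri s N k R p := by
  have hR : AnalyticAt ℂ R 0 := E.dR.analyticAt (isOpen_ball.mem_nhds (mem_ball_self E.hε))
  have h := A (ki s N k R) (0, 0) (R 0) (E.R0 0 (mem_ball_self E.hε))
    (by
      intro v hv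
      have a1 : AnalyticAt ℂ (fun q : (ℂ × ℂ) × ℂ => q.1.1) (((0 : ℂ), (0 : ℂ)), v) :=
        analyticAt_fst.comp analyticAt_fst
      have a2 : AnalyticAt ℂ (fun q : (ℂ × ℂ) × ℂ => q.1.2) (((0 : ℂ), (0 : ℂ)), v) :=
        analyticAt_snd.comp analyticAt_fst
      have a3 : AnalyticAt ℂ (fun q : (ℂ × ℂ) × ℂ => q.2) (((0 : ℂ), (0 : ℂ)), v) :=
        analyticAt_snd
      have b1 : AnalyticAt ℂ (fun q : (ℂ × ℂ) × ℂ =>
          Complex.exp (s * I * (k / N) * (q.1.2 * q.2))) (((0 : ℂ), (0 : ℂ)), v) :=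
        (analyticAt_const.mul (a2.mul a3)).cexp
      have b2 : AnalyticAt ℂ (fun q : (ℂ × ℂ) × ℂ =>
          q.1.1 * Complex.exp (s * I * (q.1.2 * q.2) / N)) (((0 : ℂ), (0 : ℂ)), v) :=
        a1.mul (((analyticAt_const.mul (a2.mul a3)).mul analyticAt_const).cexp)
      have b3 : AnalyticAt ℂ (fun q : (ℂ × ℂ) × ℂ =>
          R (q.1.1 * Complex.exp (s * I * (q.1.2 * q.2) / N))) (((0 : ℂ), (0 : ℂ)), v) :=
        hR.comp_of_eq b2 (by simp)
      have b4 : AnalyticAt ℂ (fun q : (ℂ × ℂ) × ℂ => snc (q.1.2 * (q.2 - 1)))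
          (((0 : ℂ), (0 : ℂ)), v) :=
        (snc_an _).comp_of_eq (a2.mul (a3.sub analyticAt_const)) rfl
      exact (b1.mul b3).mul b4)
    (by intro v hv; simp [ki, snc_zero])
  filter_upwards [h.2.2] with p hp
  exact hp.2.2

theorem endLI (A : RootA) (L : LawI0) : EndLI := by
  intro s N k R ε E hk
  obtain ⟨H, hH, hodd, hder, hlaw⟩ := L s N k R ε E
  have hN : (0 : ℝ) < N := by exact_mod_cast E.hN
  have hk' : (0 : ℝ) < k := by exact_mod_cast hk
  set m : ℝ := 3 * N / k with hm
  have hm0 : 0 < m := by positivity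
  set a : ℂ := (k : ℂ) / N with ha
  have hNC : (N : ℂ) ≠ 0 := by exact_mod_cast hN.ne'
  have hkC : (k : ℂ) ≠ 0 := by exact_mod_cast hk'.ne'
  have ha0 : a ≠ 0 := div_ne_zero hkC hNC
  have hma : (m : ℂ) * a = 3 := by
    rw [hm, ha]; push_cast
    field_simp
  have hmC : (m : ℂ) ≠ 0 := by exact_mod_cast hm0.ne'
  have hs2 : s * s = 1 := by rcases E.hs with rfl | rfl <;> ring
  have hs0 : s ≠ 0 := by rcases E.hs with rfl | rfl <;> simp
  have hI : I ≠ 0 := I_ne_zero
  set g : ℂ → ℂ := fun A => s * A / (2 * I) with hg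
  have hg0 : g 0 = 0 := by simp [hg]
  have hgc : Continuous g := by rw [hg]; fun_prop
  have hgt : Tendsto g (𝓝 0) (𝓝 0) := by
    have := hgc.tendsto 0
    rwa [hg0] at this
  have hgp : Tendsto (fun A => ((0 : ℂ), g A)) (𝓝 0) (𝓝 ((0 : ℂ), (0 : ℂ))) :=
    tendsto_const_nhds.prodMk_nhds hgt
  refine ⟨fun A => H (0, g A), ?_, ?_, ?_, ?_⟩
  · -- analytic
    have h1 : AnalyticAt ℂ (fun A : ℂ => ((0 : ℂ), g A)) 0 := by
      refine analyticAt_const.prod ?_
      rw [hg]
      exact (analyticAt_const.mul analyticAt_id).div_const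
    exact hH.comp_of_eq h1 (by simp [hg0])
  · -- not zero
    intro h0
    have h1 : Tendsto (fun δ : ℂ => 2 * I * (s * δ)) (𝓝 0) (𝓝 0) := by
      have : Continuous (fun δ : ℂ => 2 * I * (s * δ)) := by fun_prop
      simpa using this.tendsto 0
    have h2 : (fun δ : ℂ => H (0, δ)) =ᶠ[𝓝 0] fun _ => 0 := by
      filter_upwards [h1.eventually h0] with δ hδ
      have : g (2 * I * (s * δ)) = δ := by
        simp only [hg]
        field_simp
        linear_combination δ * hs2
      rwa [this] at hδ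
    have h3 := h2.iteratedDeriv_eq 3
    have h4 := (hder.self_of_nhds).2
    rw [h3] at h4
    simp at h4
  · -- odd
    filter_upwards [hgp.eventually hodd] with A hA
    have : g (-A) = -g A := by simp only [hg]; ring
    rw [this]
    exact hA
  · -- chord law
    have hv := hasDerivAt_vI0 m
    have hvt : Tendsto (vI m) (𝓝 0) (𝓝 0) := by
      have := hv.continuousAt.tendsto
      rwa [vI_zero] at this
    have hvn : Tendsto (fun τ => vI m (-τ)) (𝓝 0) (𝓝 0) := by
      have h1 : Tendsto (fun τ : ℂ => -τ) (𝓝 0) (𝓝 0) := by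
        simpa using (continuous_neg (G := ℂ)).tendsto 0
      exact hvt.comp h1
    -- slopes
    have hs1 : Tendsto (slope (vI m) 0) (𝓝[≠] 0) (𝓝 m) := hasDerivAt_iff_tendsto_slope.1 hv
    have hne : ∀ᶠ τ in 𝓝[≠] (0 : ℂ), vI m τ ≠ 0 := by
      have h1 : ∀ᶠ τ in 𝓝[≠] (0 : ℂ), slope (vI m) 0 τ ≠ 0 := hs1.eventually_ne hmC
      filter_upwards [h1, self_mem_nhdsWithin] with τ h2 hτ h3
      apply h2
      rw [slope_def_field, vI_zero, h3]
      simp
    have hx : Tendsto (fun τ : ℂ => 6 * τ / (a * vI m τ)) (𝓝[≠] 0) (𝓝 2) := by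
      have h1 := (hs1.const_mul a).inv₀ (mul_ne_zero ha0 hmC)
      have h2 := h1.const_mul 6
      have h3 : (6 : ℂ) * (a * m)⁻¹ = 2 := by
        rw [mul_comm a, hma]; norm_num
      rw [h3] at h2
      refine h2.congr' ?_
      filter_upwards [self_mem_nhdsWithin] with τ hτ
      have hτ' : τ ≠ 0 := hτ
      rw [slope_def_field, vI_zero, sub_zero, sub_zero]
      rcases eq_or_ne (vI m τ) 0 with h | h
      · simp [h]
      · field_simp
    have hball : ∀ᶠ τ in 𝓝[≠] (0 : ℂ), 6 * τ / (a * vI m τ) ∈ ball (2 : ℂ) (1 / 4) :=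
      hx.eventually (ball_mem_nhds _ (by norm_num))
    have hroot := ki_root A E
    have hmain : ∀ᶠ τ in 𝓝[≠] (0 : ℂ),
        H (0, g (vI m τ)) = -(Complex.exp (3 * τ) * H (0, g (vI m (-τ)))) := by
      filter_upwards [hne, hball, nhdsWithin_le_nhds (Ex_ev (3 + m)),
        nhdsWithin_le_nhds (Ex_ev (3 - m)), nhdsWithin_le_nhds (vI_neg m),
        nhdsWithin_le_nhds ((hgp.comp hvt).eventually hroot),
        nhdsWithin_le_nhds ((hgp.comp hvt).eventually hlaw),
        nhdsWithin_le_nhds ((hgp.comp hvn).eventually hodd)]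
        with τ h1 h2 h3 h4 h5 h6 h7 h8
      set w := vI m τ with hw
      set x := 6 * τ / (a * w) with hxd
      set δ := g w with hδ
      have hδ0 : δ ≠ 0 := by
        rw [hδ, hg]
        simp only
        exact div_ne_zero (mul_ne_zero hs0 h1) (by simp)
      have hD : s * δ = w / (2 * I) := by
        rw [hδ, hg]
        simp only
        rw [← mul_div_assoc, ← mul_assoc, hs2, one_mul]
      have hIw : I * (s * δ) = w / 2 := by
        rw [hD]; field_simp
      have hIx : w * x = 2 * (m * τ) := by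
        rw [hxd]
        field_simp
        linear_combination (-2 * τ) * hma
      have ew : Complex.exp w = Ex ((3 + m) * τ) / Ex ((3 - m) * τ) := exp_vI h3 h4
      have hK : Kint (ki s N k R (0, δ)) x = 0 := by
        have hk1 : ki s N k R (0, δ) = fun v =>
            Complex.exp (s * I * a * (δ * v)) * R 0 * snc (δ * (v - 1)) := by
          funext v
          simp [ki, ha]
        rw [hk1]
        refine Kint_iso E.hs hδ0 ?_
        have e1 : I * (a + 1) * (s * δ) * x = (3 + m) * τ := by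
          have : I * (a + 1) * (s * δ) * x = (a + 1) * (I * (s * δ)) * x := by ring
          rw [this, hIw]
          linear_combination ((a + 1) / 2) * hIx + τ * hma
        have e2 : I * (a - 1) * (s * δ) * x = (3 - m) * τ := by
          have : I * (a - 1) * (s * δ) * x = (a - 1) * (I * (s * δ)) * x := by ring
          rw [this, hIw]
          linear_combination ((a - 1) / 2) * hIx + τ * hma
        rw [e1, e2, hIw]
        have e3 : Complex.exp (w / 2) * Complex.exp (w / 2) = Complex.exp w := by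
          rw [← Complex.exp_add]; congr 1; ring
        have e4 : Complex.exp (-(w / 2)) * Complex.exp (w / 2) = 1 := by
          rw [← Complex.exp_add]; simp
        have e5 : Ex ((3 + m) * τ) = Complex.exp w * Ex ((3 - m) * τ) := by
          rw [ew, div_mul_cancel₀ _ h4]
        rw [e5, ← e3]
        linear_combination (Complex.exp (w / 2) * Ex ((3 - m) * τ)) * e4
      have hxr : x = ri s N k R (0, δ) := h6 x h2 hK
      have hT : Ti s N k R (0, δ) = (0, -g (vI m (-τ))) := by
        unfold Ti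
        simp only [← hxr, zero_mul]
        congr 1
        rw [h5, hδ, hg]
        simp only
        have e9 : s * w / (2 * I) * (x - 1) = s * (w * x - w) / (2 * I) := by ring
        rw [e9, hIx]
        ring
      have hex : Complex.exp (s * I * (k / N) * (δ * ri s N k R (0, δ))) = Complex.exp (3 * τ) := by
        rw [← hxr, ← ha]
        congr 1
        have : s * I * a * (δ * x) = a * (I * (s * δ)) * x := by ring
        rw [this, hIw]
        linear_combination (a / 2) * hIx + τ * hma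
      have h7' : Complex.exp (s * I * (k / N) * (δ * ri s N k R (0, δ))) *
          R (Ti s N k R (0, δ)).1 * H (Ti s N k R (0, δ)) = R 0 * H (0, δ) := h7
      rw [hex, hT] at h7'
      have h8' : H (0, -g (vI m (-τ))) = -H (0, g (vI m (-τ))) := h8
      simp only at h7'
      rw [h8'] at h7'
      have hR0 : R 0 ≠ 0 := E.R0 0 (mem_ball_self E.hε)
      apply mul_left_cancel₀ hR0
      rw [← h7']
      ring
    rw [eventually_nhdsWithin_iff] at hmain
    have hH0 : H (0, 0) = 0 := by
      have h1 := hodd.self_of_nhds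
      simp only [neg_zero] at h1
      linear_combination h1 / 2
    filter_upwards [hmain] with τ h
    by_cases h0 : τ = 0
    · subst h0
      simp [vI_zero, hg0, hH0]
    · exact h h0

end Vale.Agent.P097.H147
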